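import Vale.Agent.P205.G.Main
import Vale.Agent.P205.T.Main

/-!
Assembly.
-/

open scoped Manifold ContDiff Topology RealInnerProductSpace
open Set Filter Metric Function

noncomputable section

namespace Vale.Agent.P205

theorem final {M : Type*} [TopologicalSpace M] [T2Space M] [CompactSpace M]
    [ChartedSpace (EuclideanSpace ℝ (Fin 2)) M]
    [IsManifold 𝓘(ℝ, EuclideanSpace ℝ (Fin 2)) ∞ M]
    (g : Bundle.ContMDiffRiemannianMetric 𝓘(ℝ, EuclideanSpace ℝ (Fin 2)) ∞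
      (EuclideanSpace ℝ (Fin 2))
      (fun p : M => TangentSpace 𝓘(ℝ, EuclideanSpace ℝ (Fin 2)) p)) :
    ∃ F : M → EuclideanSpace ℝ (Fin 4),
      ContMDiff 𝓘(ℝ, EuclideanSpace ℝ (Fin 2)) 𝓘(ℝ, EuclideanSpace ℝ (Fin 4)) ∞ F ∧
      ∀ (p : M) (v w : TangentSpace 𝓘(ℝ, EuclideanSpace ℝ (Fin 2)) p),
        inner ℝ
          (show EuclideanSpace ℝ (Fin 4) from
            mfderiv 𝓘(ℝ, EuclideanSpace ℝ (Fin 2)) 𝓘(ℝ, EuclideanSpace ℝ (Fin 4)) F p v)
          (show EuclideanSpace ℝ (Fin 4) from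
            mfderiv 𝓘(ℝ, EuclideanSpace ℝ (Fin 2)) 𝓘(ℝ, EuclideanSpace ℝ (Fin 4)) F p w)
          = g.inner p v w := by
  obtain ⟨f, ν, hf, hν, hI⟩ := topo (M := M)
  obtain ⟨F, hF, h⟩ := glob (isMetric_of_riem g) hf hν hI
  refine ⟨F, hF, fun p v w => ?_⟩
  have := congrArg (fun T : M → Bil => T p v w) h
  exact (pull_apply F p v w).symm.trans this

end Vale.Agent.P205
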